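import Vale.Agent.helper1.Gsh.Elem

namespace Vale.Agent.Results.P329.AbelianByElementary

open Vale.Agent.helper5.GSH

/-- Every language recognised by a finite group `G` having an abelian normal subgroup `N` such that
`G / N` is an elementary abelian `p`-group (abelian of exponent dividing the prime `p`) has
generalized star height at most one. -/
theorem result {α : Type} [Fintype α] [DecidableEq α] {G : Type} [Group G] [Finite G]
    (p : ℕ) [Fact p.Prime] (N : Subgroup G) [N.Normal]
    (hN : ∀ a ∈ N, ∀ b ∈ N, a * b = b * a) (hp : ∀ g : G, g ^ p ∈ N)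
    (hc : ∀ g h : G, g * h * g⁻¹ * h⁻¹ ∈ N) (φ : FreeMonoid α →* G) (S : Set G) :
    GshLe 1 {w : List α | φ (FreeMonoid.ofList w) ∈ S} :=
  Vale.Agent.helper1.Gsh.gshLe_of_abelian_elementary N hN hp hc φ S

end Vale.Agent.Results.P329.AbelianByElementary
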