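import Vale.Agent.helper1.Gsh.ClassFour
import Vale.Agent.helper1.Gsh.Elem
import Vale.Agent.helper1.Gsh.CyclicGroup
import Vale.Agent.helper1.Gsh.FourGeneral

namespace Vale.Agent.Results.P329.Combined

open Vale.Agent.helper5.GSH

/-- Four classes of languages of generalized star height at most one, over every finite alphabet:
(1) languages recognised by finite groups of nilpotency class at most four;
(2) languages recognised by finite groups with an abelian normal subgroup whose quotient is
abelian of prime exponent;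
(3) languages recognised by a finite group with an abelian normal subgroup `N` when every letter
goes to `N` or to one fixed coset `g N`;
(4) residue classes of scattered subword counts of words of length at most four modulo every
`n > 0`, and languages recognised by morphisms `φ` into rings of characteristic `n` such that every
product of five elements `φ x - 1` vanishes. -/
theorem result {α : Type} [Fintype α] [DecidableEq α] :
    (∀ (G : Type) [Group G] [Finite G], (⊤ : Subgroup G).lowerCentralSeries 4 = ⊥ →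
      ∀ (φ : FreeMonoid α →* G) (S : Set G),
        GshLe 1 {w : List α | φ (FreeMonoid.ofList w) ∈ S}) ∧
    (∀ (G : Type) [Group G] [Finite G] (p : ℕ) [Fact p.Prime] (N : Subgroup G) [N.Normal],
      (∀ a ∈ N, ∀ b ∈ N, a * b = b * a) → (∀ g : G, g ^ p ∈ N) →
      (∀ g h : G, g * h * g⁻¹ * h⁻¹ ∈ N) →
      ∀ (φ : FreeMonoid α →* G) (S : Set G),
        GshLe 1 {w : List α | φ (FreeMonoid.ofList w) ∈ S}) ∧
    (∀ (G : Type) [Group G] [Finite G] (N : Subgroup G) [N.Normal],
      (∀ a ∈ N, ∀ b ∈ N, a * b = b * a) → ∀ (g : G) (φ : FreeMonoid α →* G),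
      (∀ y : α, φ (FreeMonoid.of y) ∈ N ∨ g⁻¹ * φ (FreeMonoid.of y) ∈ N) → ∀ S : Set G,
        GshLe 1 {w : List α | φ (FreeMonoid.ofList w) ∈ S}) ∧
    (∀ n : ℕ, 0 < n →
      (∀ (u : List α), u.length ≤ 4 → ∀ r : ZMod n,
        GshLe 1 {w : List α | ((sw w u : ℕ) : ZMod n) = r}) ∧
      (∀ (A : Type) [Ring A] [CharP A n] (φ : FreeMonoid α →* A),
        (∀ a b c d e : α, (φ (FreeMonoid.of a) - 1) * (φ (FreeMonoid.of b) - 1) *
          (φ (FreeMonoid.of c) - 1) * (φ (FreeMonoid.of d) - 1) * (φ (FreeMonoid.of e) - 1) = 0) →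
        ∀ S : Set A, GshLe 1 {w : List α | φ (FreeMonoid.ofList w) ∈ S})) := by
  refine ⟨fun G _ _ hG φ S => Vale.Agent.helper1.Gsh.gshLe_of_classFour hG φ S,
    fun G _ _ p _ N _ hN hp hc φ S => Vale.Agent.helper1.Gsh.gshLe_of_abelian_elementary N hN hp hc φ S,
    fun G _ _ N _ hN g φ hφ S => Vale.Agent.helper1.Gsh.gshLe_of_cyclic_top N hN g φ hφ S,
    fun n hn => ?_⟩
  haveI : NeZero n := ⟨hn.ne'⟩
  exact ⟨fun u hu r => Vale.Agent.helper1.Gsh.acc_sw_le_four_all n u hu r,
    fun _ _ _ φ hφ S => Vale.Agent.helper1.Gsh.gshLe_of_ring_all n hn φ hφ S⟩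

end Vale.Agent.Results.P329.Combined
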