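import Vale.Agent.helper1.Gsh.CyclicGroup

namespace Vale.Agent.Results.P329.CyclicPhase

open Vale.Agent.helper5.GSH

/-- Let `G` be a finite group, `N` an abelian normal subgroup and `g` an element of `G`. If the
morphism `φ` sends every letter to `N` or to the coset `g N`, then every language recognised by `φ`
has generalized star height at most one. No condition is put on the order of `g` modulo `N`. -/
theorem result {α : Type} [Fintype α] [DecidableEq α] {G : Type} [Group G] [Finite G]
    (N : Subgroup G) [N.Normal] (hN : ∀ a ∈ N, ∀ b ∈ N, a * b = b * a) (g : G)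
    (φ : FreeMonoid α →* G)
    (hφ : ∀ y : α, φ (FreeMonoid.of y) ∈ N ∨ g⁻¹ * φ (FreeMonoid.of y) ∈ N) (S : Set G) :
    GshLe 1 {w : List α | φ (FreeMonoid.ofList w) ∈ S} :=
  Vale.Agent.helper1.Gsh.gshLe_of_cyclic_top N hN g φ hφ S

end Vale.Agent.Results.P329.CyclicPhase
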