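import Vale.Agent.helper5.GSHClassThree

namespace Vale.Agent.Results.P329.NilpotentThree

open Vale.Agent.helper5.GSH

/-- Every language recognised by a finite group of nilpotency class at most three has generalized
star height at most one: the lower central series term `γ₄`, which is `lowerCentralSeries 3` in
the indexing from `γ₁ = ⊤ = lowerCentralSeries 0`, is assumed trivial. -/
theorem result {α : Type} [Fintype α] [DecidableEq α] {G : Type} [Group G] [Finite G]
    (hG : (⊤ : Subgroup G).lowerCentralSeries 3 = ⊥) (φ : FreeMonoid α →* G) (S : Set G) :
    GshLe 1 {w : List α | φ (FreeMonoid.ofList w) ∈ S} :=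
  gshLe_of_classThree hG φ S

end Vale.Agent.Results.P329.NilpotentThree
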