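import Vale.Agent.helper1.Gsh.PrimeFour

namespace Vale.Agent.Results.P329.PrimeFour

open Vale.Agent.helper5.GSH

/-- Let `p ≥ 5` be a prime. First, for every word `u` of length at most four, the number of
occurrences of `u` as a scattered subword, taken modulo `p`, has all its fibers of generalized star
height at most one. Second, let `A` be a ring of characteristic `p` and `φ` a monoid morphism from
words to `A` such that every product of five elements `φ x - 1`, `x` a letter, vanishes. Then every
language recognised by `φ` has generalized star height at most one. This covers the group of upper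
unitriangular `5 × 5` matrices over the field with `p` elements, which is not metabelian, and all
its subgroups. -/
theorem result {α : Type} [Fintype α] [DecidableEq α] (p : ℕ) [Fact p.Prime] (hp : 5 ≤ p) :
    (∀ (u : List α), u.length ≤ 4 → ∀ r : ZMod p,
      GshLe 1 {w : List α | ((sw w u : ℕ) : ZMod p) = r}) ∧
    (∀ (A : Type) [Ring A] [CharP A p] (φ : FreeMonoid α →* A),
      (∀ a b c d e : α, (φ (FreeMonoid.of a) - 1) * (φ (FreeMonoid.of b) - 1) *
        (φ (FreeMonoid.of c) - 1) * (φ (FreeMonoid.of d) - 1) * (φ (FreeMonoid.of e) - 1) = 0) →
      ∀ S : Set A, GshLe 1 {w : List α | φ (FreeMonoid.ofList w) ∈ S}) :=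
  ⟨fun u hu r => Vale.Agent.helper1.Gsh.acc_sw_le_four p hp u hu r,
    fun _ _ _ φ hφ S => Vale.Agent.helper1.Gsh.gshLe_of_ring p hp φ hφ S⟩

end Vale.Agent.Results.P329.PrimeFour
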