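import Vale.Agent.helper5.GSHSubword

namespace Vale.Agent.Results.P329.SubwordThree

open Vale.Agent.helper5.GSH

/-- For every word `u` of length at most three and all `n > 0`, `r`, the language of the words
in which `u` occurs as a scattered subword (counted by positions) a number of times congruent
to `r` modulo `n` has generalized star height at most one. -/
theorem result {α : Type} [Fintype α] [DecidableEq α] (u : List α) (hu : u.length ≤ 3)
    (n r : ℕ) (hn : 0 < n) :
    GshLe 1 {w : List α | (w.sublists'.count u) % n = r} := by
  haveI : NeZero n := ⟨hn.ne'⟩
  have h1 := (acc_sw_le_three n u hu).comp (fun v : ZMod n => v.val) r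
  convert h1 using 1
  ext w
  simp only [Set.mem_setOf_eq, count_sublists'_eq_sw, ZMod.val_natCast]

end Vale.Agent.Results.P329.SubwordThree
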